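import Mathlib

set_option autoImplicit false
open MeasureTheory
open scoped ENNReal

namespace Crest.Agent.S0329

/-- Abbreviations for the plane and for three-space. -/
abbrev E2 := EuclideanSpace ℝ (Fin 2)
abbrev E3 := EuclideanSpace ℝ (Fin 3)

theorem e3_ext {v w : E3} (h0 : v 0 = w 0) (h1 : v 1 = w 1) (h2 : v 2 = w 2) : v = w := by
  ext i
  fin_cases i
  · exact h0
  · exact h1
  · exact h2

theorem e2_ext {v w : E2} (h0 : v 0 = w 0) (h1 : v 1 = w 1) : v = w := by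
  ext i
  fin_cases i
  · exact h0
  · exact h1

theorem inner3 (v w : E3) : inner ℝ v w = v 0 * w 0 + v 1 * w 1 + v 2 * w 2 := by
  simp [EuclideanSpace.inner_eq_star_dotProduct, Fin.sum_univ_three, dotProduct]
  ring

theorem inner2 (v w : E2) : inner ℝ v w = v 0 * w 0 + v 1 * w 1 := by
  simp [EuclideanSpace.inner_eq_star_dotProduct, Fin.sum_univ_two, dotProduct]
  ring

theorem normsq3 (v : E3) : ‖v‖ ^ 2 = v 0 ^ 2 + v 1 ^ 2 + v 2 ^ 2 := by
  rw [EuclideanSpace.norm_sq_eq]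
  simp [Fin.sum_univ_three]

theorem normsq2 (v : E2) : ‖v‖ ^ 2 = v 0 ^ 2 + v 1 ^ 2 := by
  rw [EuclideanSpace.norm_sq_eq]
  simp [Fin.sum_univ_two]

/-- The axis direction (not normalised) of the cylinder obtained from a sheared cylinder of
velocity `g`. -/
noncomputable def Gv (h : ℝ) (g : E2) : E3 := !₂[1, g 0, h * g 1]

/-- Lift of a planar vector to the plane `x₀ = 0` of three-space, second coordinate scaled by `h`. -/
noncomputable def lift (h : ℝ) (a : E2) : E3 := !₂[0, a 0, h * a 1]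

/-- Squared length of `Gv h g`. -/
noncomputable def N2 (h : ℝ) (g : E2) : ℝ := 1 + (g 0) ^ 2 + h ^ 2 * (g 1) ^ 2

theorem N2_pos (h : ℝ) (g : E2) : 0 < N2 h g := by
  unfold N2; positivity

@[simp] theorem Gv_0 (h : ℝ) (g : E2) : Gv h g 0 = 1 := by simp [Gv]
@[simp] theorem Gv_1 (h : ℝ) (g : E2) : Gv h g 1 = g 0 := by simp [Gv]
@[simp] theorem Gv_2 (h : ℝ) (g : E2) : Gv h g 2 = h * g 1 := by simp [Gv]
@[simp] theorem lift_0 (h : ℝ) (a : E2) : lift h a 0 = 0 := by simp [lift]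
@[simp] theorem lift_1 (h : ℝ) (a : E2) : lift h a 1 = a 0 := by simp [lift]
@[simp] theorem lift_2 (h : ℝ) (a : E2) : lift h a 2 = h * a 1 := by simp [lift]

theorem normsq_Gv (h : ℝ) (g : E2) : ‖Gv h g‖ ^ 2 = N2 h g := by
  rw [normsq3]; simp [N2]; ring

theorem norm_Gv (h : ℝ) (g : E2) : ‖Gv h g‖ = Real.sqrt (N2 h g) := by
  rw [← normsq_Gv, Real.sqrt_sq (norm_nonneg _)]

theorem norm_Gv_pos (h : ℝ) (g : E2) : 0 < ‖Gv h g‖ := by
  rw [norm_Gv]; exact Real.sqrt_pos.mpr (N2_pos h g)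

/-- The unit axis direction. -/
noncomputable def uv (h : ℝ) (g : E2) : E3 := (‖Gv h g‖)⁻¹ • Gv h g

theorem norm_uv (h : ℝ) (g : E2) : ‖uv h g‖ = 1 := by
  unfold uv
  rw [norm_smul, norm_inv, norm_norm]
  exact inv_mul_cancel₀ (norm_Gv_pos h g).ne'

/-- Orthogonal projection along the axis, written with the non-normalised axis vector. -/
noncomputable def pr (h : ℝ) (g : E2) (y : E3) : E3 := y - (inner ℝ y (Gv h g) / N2 h g) • Gv h g

theorem proj_eq_pr (h : ℝ) (g : E2) (y : E3) :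
    y - inner ℝ y (uv h g) • uv h g = pr h g y := by
  unfold pr uv
  rw [inner_smul_right, smul_smul]
  congr 2
  rw [← normsq_Gv]
  have := (norm_Gv_pos h g).ne'
  field_simp

theorem inner_pr_uv (h : ℝ) (g : E2) (y : E3) : inner ℝ (pr h g y) (uv h g) = 0 := by
  rw [← proj_eq_pr, inner_sub_left, inner_smul_left, real_inner_self_eq_norm_sq, norm_uv]
  simp

theorem pr_add (h : ℝ) (g : E2) (y z : E3) : pr h g (y + z) = pr h g y + pr h g z := by
  unfold pr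
  rw [inner_add_left, add_div, add_smul]
  abel

theorem pr_smul (h : ℝ) (g : E2) (r : ℝ) (y : E3) : pr h g (r • y) = r • pr h g y := by
  unfold pr
  rw [inner_smul_left, smul_sub, smul_smul]
  simp [mul_div_assoc]

theorem pr_Gv (h : ℝ) (g : E2) : pr h g (Gv h g) = 0 := by
  unfold pr
  rw [real_inner_self_eq_norm_sq, normsq_Gv, div_self (N2_pos h g).ne', one_smul, sub_self]

theorem pr_of_inner_uv_eq_zero (h : ℝ) (g : E2) (y : E3) (hy : inner ℝ y (uv h g) = 0) :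
    pr h g y = y := by
  rw [← proj_eq_pr, hy, zero_smul, sub_zero]


/-- The `a`-coordinate of a point `y` of three-space in the sheared frame: project `y` along the
axis `Gv h g` onto the plane `x₀ = 0`, undo the scaling by `h`, subtract `c` and take the
coefficient along `a`. -/
noncomputable def sc (h : ℝ) (c a g : E2) (y : E3) : ℝ :=
  ((y 1 - y 0 * g 0 - c 0) * a 0 + (y 2 / h - y 0 * g 1 - c 1) * a 1) / (a 0 ^ 2 + a 1 ^ 2)

theorem continuous_coord3 (i : Fin 3) : Continuous fun y : E3 => y i :=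
  (EuclideanSpace.proj i).continuous

theorem continuous_sc (h : ℝ) (c a g : E2) : Continuous (sc h c a g) := by
  unfold sc
  have h0 := continuous_coord3 0
  have h1 := continuous_coord3 1
  have h2 := continuous_coord3 2
  fun_prop

theorem sc_add_smul_Gv (h : ℝ) (hh : h ≠ 0) (c a g : E2) (y : E3) (r : ℝ) :
    sc h c a g (y + r • Gv h g) = sc h c a g y := by
  unfold sc
  simp only [PiLp.add_apply, PiLp.smul_apply, smul_eq_mul, Gv_0, Gv_1, Gv_2]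
  congr 1
  field_simp
  ring

/-- In the plane, a nonzero vector `a` and an orthogonal vector `b` of the same length form an
orthogonal frame; coordinate facts. -/
theorem frame_facts {a b : E2} (ha : a ≠ 0) (hn : ‖b‖ = ‖a‖) (hab : inner ℝ a b = 0) :
    0 < a 0 ^ 2 + a 1 ^ 2 ∧ b 0 ^ 2 + b 1 ^ 2 = a 0 ^ 2 + a 1 ^ 2 ∧ a 0 * b 0 + a 1 * b 1 = 0 := by
  refine ⟨?_, ?_, ?_⟩
  · rw [← normsq2]; positivity
  · rw [← normsq2, ← normsq2, hn]
  · rw [← inner2]; exact hab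

theorem frame_sq {a0 a1 b0 b1 : ℝ} (hpos : 0 < a0 ^ 2 + a1 ^ 2)
    (hn : b0 ^ 2 + b1 ^ 2 = a0 ^ 2 + a1 ^ 2) (ho : a0 * b0 + a1 * b1 = 0) :
    b0 ^ 2 = a1 ^ 2 ∧ b1 ^ 2 = a0 ^ 2 ∧ b0 * b1 = -(a0 * a1) := by
  have e1 : (b0 ^ 2 - a1 ^ 2) * (a0 ^ 2 + a1 ^ 2) = 0 := by
    linear_combination (a0 * b0 - a1 * b1) * ho + a1 ^ 2 * hn
  have hb0 : b0 ^ 2 = a1 ^ 2 := by
    rcases mul_eq_zero.mp e1 with h | h
    · linarith
    · exact absurd h hpos.ne'
  have hb1 : b1 ^ 2 = a0 ^ 2 := by linarith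
  refine ⟨hb0, hb1, ?_⟩
  have e2 : (b0 * b1 + a0 * a1) * (a0 ^ 2 + a1 ^ 2) = 0 := by
    linear_combination (a0 * b1 + a1 * b0) * ho - a0 * a1 * hn
  rcases mul_eq_zero.mp e2 with h | h
  · linarith
  · exact absurd h hpos.ne'

/-- Decomposition of a point of three-space in the sheared frame attached to a square
`c + [0,1] a + [0,1] b` with velocity `g`. -/
theorem decomp (h : ℝ) (hh : h ≠ 0) {c a b g : E2} (ha : a ≠ 0) (hn : ‖b‖ = ‖a‖)
    (hab : inner ℝ a b = 0) (y : E3) :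
    y = y 0 • Gv h g + (lift h c + sc h c a g y • lift h a + sc h c b g y • lift h b) := by
  obtain ⟨hpos, hnb, ho⟩ := frame_facts ha hn hab
  obtain ⟨hb0, hb1, hbb⟩ := frame_sq hpos hnb ho
  have hposb : 0 < b 0 ^ 2 + b 1 ^ 2 := by rw [hnb]; exact hpos
  -- the two planar identities
  have key0 : ∀ v0 v1 : ℝ,
      (v0 * a 0 + v1 * a 1) / (a 0 ^ 2 + a 1 ^ 2) * a 0 +
        (v0 * b 0 + v1 * b 1) / (b 0 ^ 2 + b 1 ^ 2) * b 0 = v0 := by
    intro v0 v1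
    rw [hnb]
    field_simp
    linear_combination v0 * hb0 + v1 * hbb
  have key1 : ∀ v0 v1 : ℝ,
      (v0 * a 0 + v1 * a 1) / (a 0 ^ 2 + a 1 ^ 2) * a 1 +
        (v0 * b 0 + v1 * b 1) / (b 0 ^ 2 + b 1 ^ 2) * b 1 = v1 := by
    intro v0 v1
    rw [hnb]
    field_simp
    linear_combination v1 * hb1 + v0 * hbb
  apply e3_ext
  · simp [sc]
  · have := key0 (y 1 - y 0 * g 0 - c 0) (y 2 / h - y 0 * g 1 - c 1)
    simp only [PiLp.add_apply, PiLp.smul_apply, smul_eq_mul, Gv_1, lift_1, sc]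
    linarith
  · have := key1 (y 1 - y 0 * g 0 - c 0) (y 2 / h - y 0 * g 1 - c 1)
    simp only [PiLp.add_apply, PiLp.smul_apply, smul_eq_mul, Gv_2, lift_2, sc]
    have e : y 2 = h * (y 2 / h) := by field_simp
    linear_combination (-h) * this + e

/-- Gram determinant of the projected lifted frame. -/
theorem gram_pr (h : ℝ) (a b g : E2) :
    ‖pr h g (lift h a)‖ ^ 2 * ‖pr h g (lift h b)‖ ^ 2
        - inner ℝ (pr h g (lift h a)) (pr h g (lift h b)) ^ 2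
      = h ^ 2 * (a 0 * b 1 - a 1 * b 0) ^ 2 / N2 h g := by
  have hN := (N2_pos h g).ne'
  rw [normsq3, normsq3, inner3]
  simp only [pr, inner3, PiLp.sub_apply, PiLp.smul_apply, smul_eq_mul, Gv_0, Gv_1, Gv_2, lift_0,
    lift_1, lift_2]
  unfold N2 at hN ⊢
  field_simp
  ring

theorem det_sq_of_frame {a b : E2} (ha : a ≠ 0) (hn : ‖b‖ = ‖a‖) (hab : inner ℝ a b = 0) :
    (a 0 * b 1 - a 1 * b 0) ^ 2 = (‖a‖ ^ 2) ^ 2 := by
  obtain ⟨hpos, hnb, ho⟩ := frame_facts ha hn hab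
  rw [normsq2]
  linear_combination (a 0 ^ 2 + a 1 ^ 2) * hnb - (a 0 * b 0 + a 1 * b 1) * ho

/-- The Gram determinant of the projected lifted frame of a square. -/
theorem gram_pr_frame (h : ℝ) {a b : E2} (g : E2) (ha : a ≠ 0) (hn : ‖b‖ = ‖a‖)
    (hab : inner ℝ a b = 0) :
    ‖pr h g (lift h a)‖ ^ 2 * ‖pr h g (lift h b)‖ ^ 2
        - inner ℝ (pr h g (lift h a)) (pr h g (lift h b)) ^ 2
      = (h * ‖a‖ ^ 2 / Real.sqrt (N2 h g)) ^ 2 := by
  rw [gram_pr, det_sq_of_frame ha hn hab, div_pow, Real.sq_sqrt (N2_pos h g).le]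
  ring

/-- The frame coordinates of a point of a sheared square cylinder. -/
theorem sc_of_eq (h : ℝ) (hh : h ≠ 0) {c a b g : E2} (ha : a ≠ 0) (hn : ‖b‖ = ‖a‖)
    (hab : inner ℝ a b = 0) (w : E2) (x s t : ℝ) (hw : w = c + s • a + t • b + x • g) :
    sc h c a g !₂[x, w 0, h * w 1] = s ∧ sc h c b g !₂[x, w 0, h * w 1] = t := by
  obtain ⟨hpos, hnb, ho⟩ := frame_facts ha hn hab
  have hposb : 0 < b 0 ^ 2 + b 1 ^ 2 := by rw [hnb]; exact hpos
  have h0 : w 0 = c 0 + s * a 0 + t * b 0 + x * g 0 := by rw [hw]; simp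
  have h1 : w 1 = c 1 + s * a 1 + t * b 1 + x * g 1 := by rw [hw]; simp
  have e2 : h * w 1 / h = w 1 := by field_simp
  constructor
  · unfold sc
    rw [div_eq_iff hpos.ne']
    simp
    rw [e2, h0, h1]
    linear_combination t * ho
  · unfold sc
    rw [div_eq_iff hposb.ne']
    simp
    rw [e2, h0, h1]
    linear_combination s * ho

/-- The open set of points whose frame coordinates lie in the enlarged open unit square. -/
def Oset (h : ℝ) (c a b g : E2) (η : ℝ) : Set E3 :=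
  {y | sc h c a g y ∈ Set.Ioo (-η) (1 + η) ∧ sc h c b g y ∈ Set.Ioo (-η) (1 + η)}

theorem isOpen_Oset (h : ℝ) (c a b g : E2) (η : ℝ) : IsOpen (Oset h c a b g η) :=
  (isOpen_Ioo.preimage (continuous_sc h c a g)).inter (isOpen_Ioo.preimage (continuous_sc h c b g))

/-- The base of the cylinder: the trace of `Oset` on the plane orthogonal to the axis. -/
def Bset (h : ℝ) (c a b g : E2) (η : ℝ) : Set E3 :=
  Oset h c a b g η ∩ {x | inner ℝ x (uv h g) = 0}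

theorem Bset_subset (h : ℝ) (hh : h ≠ 0) {c a b g : E2} (ha : a ≠ 0) (hn : ‖b‖ = ‖a‖)
    (hab : inner ℝ a b = 0) (η : ℝ) :
    Bset h c a b g η ⊆
      (fun st : ℝ × ℝ => pr h g (lift h c) + st.1 • pr h g (lift h a) + st.2 • pr h g (lift h b)) ''
        (Set.Ioo (-η) (1 + η) ×ˢ Set.Ioo (-η) (1 + η)) := by
  rintro y ⟨⟨hs, ht⟩, hy⟩
  refine ⟨(sc h c a g y, sc h c b g y), ⟨hs, ht⟩, ?_⟩
  have h1 := decomp h hh ha hn hab (g := g) (c := c) y
  have h2 : pr h g y = y := pr_of_inner_uv_eq_zero h g y hy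
  calc pr h g (lift h c) + sc h c a g y • pr h g (lift h a) + sc h c b g y • pr h g (lift h b)
      = pr h g (y 0 • Gv h g + (lift h c + sc h c a g y • lift h a + sc h c b g y • lift h b)) := by
        rw [pr_add, pr_add, pr_add, pr_smul, pr_smul, pr_smul, pr_Gv, smul_zero, zero_add]
    _ = pr h g y := by rw [← h1]
    _ = y := h2

theorem Bset_bounded (h : ℝ) (hh : h ≠ 0) {c a b g : E2} (ha : a ≠ 0) (hn : ‖b‖ = ‖a‖)
    (hab : inner ℝ a b = 0) (η : ℝ) : Bornology.IsBounded (Bset h c a b g η) := by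
  have hcont : Continuous (fun st : ℝ × ℝ =>
      pr h g (lift h c) + st.1 • pr h g (lift h a) + st.2 • pr h g (lift h b)) := by fun_prop
  have hK : IsCompact ((fun st : ℝ × ℝ =>
      pr h g (lift h c) + st.1 • pr h g (lift h a) + st.2 • pr h g (lift h b)) ''
        (Set.Icc (-η) (1 + η) ×ˢ Set.Icc (-η) (1 + η))) :=
    (isCompact_Icc.prod isCompact_Icc).image hcont
  exact hK.isBounded.subset ((Bset_subset h hh ha hn hab η).trans
    (Set.image_mono (Set.prod_mono Set.Ioo_subset_Icc_self Set.Ioo_subset_Icc_self)))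

theorem Bset_area (h : ℝ) (hh : 0 < h) {c a b g : E2} (ha : a ≠ 0) (hn : ‖b‖ = ‖a‖)
    (hab : inner ℝ a b = 0) (η : ℝ) (hη : 0 < η)
    (harea : ∀ (c a b : E3) (S : Set (ℝ × ℝ)),
      0 < Real.sqrt (‖a‖ ^ 2 * ‖b‖ ^ 2 - inner ℝ a b ^ 2) →
      μHE[2] ((fun st : ℝ × ℝ => c + st.1 • a + st.2 • b) '' S) =
        ENNReal.ofReal (Real.sqrt (‖a‖ ^ 2 * ‖b‖ ^ 2 - inner ℝ a b ^ 2)) * volume S) :
    (μHE[2] (Bset h c a b g η)).toReal ≤
      (1 + 2 * η) ^ 2 * (h * ‖a‖ ^ 2 / Real.sqrt (N2 h g)) := by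
  have hG := gram_pr_frame h g ha hn hab
  have hna : 0 < ‖a‖ := norm_pos_iff.mpr ha
  have hsN : 0 < Real.sqrt (N2 h g) := Real.sqrt_pos.mpr (N2_pos h g)
  have hval : 0 < h * ‖a‖ ^ 2 / Real.sqrt (N2 h g) := by positivity
  have hsqrt : Real.sqrt (‖pr h g (lift h a)‖ ^ 2 * ‖pr h g (lift h b)‖ ^ 2
        - inner ℝ (pr h g (lift h a)) (pr h g (lift h b)) ^ 2)
      = h * ‖a‖ ^ 2 / Real.sqrt (N2 h g) := by
    rw [hG, Real.sqrt_sq hval.le]
  have hA := harea (pr h g (lift h c)) (pr h g (lift h a)) (pr h g (lift h b))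
    (Set.Ioo (-η) (1 + η) ×ˢ Set.Ioo (-η) (1 + η)) (by rw [hsqrt]; exact hval)
  have hvol : volume (Set.Ioo (-η) (1 + η) ×ˢ Set.Ioo (-η) (1 + η) : Set (ℝ × ℝ))
      = ENNReal.ofReal (1 + 2 * η) * ENNReal.ofReal (1 + 2 * η) := by
    rw [Measure.volume_eq_prod, Measure.prod_prod, Real.volume_Ioo]
    congr 2 <;> ring
  have hle : μHE[2] (Bset h c a b g η) ≤
      ENNReal.ofReal (h * ‖a‖ ^ 2 / Real.sqrt (N2 h g)) *
        (ENNReal.ofReal (1 + 2 * η) * ENNReal.ofReal (1 + 2 * η)) := by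
    calc μHE[2] (Bset h c a b g η)
        ≤ μHE[2] ((fun st : ℝ × ℝ =>
            pr h g (lift h c) + st.1 • pr h g (lift h a) + st.2 • pr h g (lift h b)) ''
            (Set.Ioo (-η) (1 + η) ×ˢ Set.Ioo (-η) (1 + η))) :=
          measure_mono (Bset_subset h hh.ne' ha hn hab η)
      _ = _ := by rw [hA, hsqrt, hvol]
  have hfin : ENNReal.ofReal (h * ‖a‖ ^ 2 / Real.sqrt (N2 h g)) *
        (ENNReal.ofReal (1 + 2 * η) * ENNReal.ofReal (1 + 2 * η)) ≠ ⊤ :=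
    ENNReal.mul_ne_top ENNReal.ofReal_ne_top (ENNReal.mul_ne_top ENNReal.ofReal_ne_top
      ENNReal.ofReal_ne_top)
  have h3 := ENNReal.toReal_mono hfin hle
  rw [ENNReal.toReal_mul, ENNReal.toReal_mul, ENNReal.toReal_ofReal hval.le,
    ENNReal.toReal_ofReal (by positivity)] at h3
  calc (μHE[2] (Bset h c a b g η)).toReal
      ≤ h * ‖a‖ ^ 2 / Real.sqrt (N2 h g) * ((1 + 2 * η) * (1 + 2 * η)) := h3
    _ = (1 + 2 * η) ^ 2 * (h * ‖a‖ ^ 2 / Real.sqrt (N2 h g)) := by ring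

theorem Bset_cover (h : ℝ) (hh : h ≠ 0) {c a b g : E2} (ha : a ≠ 0) (hn : ‖b‖ = ‖a‖)
    (hab : inner ℝ a b = 0) (η : ℝ) (hη : 0 < η) (w : E2) (x s t : ℝ)
    (hs : s ∈ Set.Icc (0 : ℝ) 1) (ht : t ∈ Set.Icc (0 : ℝ) 1)
    (hw : w = c + s • a + t • b + x • g) :
    ∃ y ∈ Bset h c a b g η, ∃ τ : ℝ, (!₂[x, w 0, h * w 1] : E3) = y + τ • uv h g := by
  obtain ⟨e1, e2⟩ := sc_of_eq h hh ha hn hab w x s t hw
  generalize (!₂[x, w 0, h * w 1] : E3) = z at e1 e2 ⊢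
  have hpz : pr h g z = z + (-(inner ℝ z (Gv h g) / N2 h g)) • Gv h g := by
    unfold pr; rw [neg_smul, sub_eq_add_neg]
  refine ⟨pr h g z, ⟨⟨?_, ?_⟩, inner_pr_uv h g z⟩, inner ℝ z (uv h g), ?_⟩
  · show sc h c a g (pr h g z) ∈ Set.Ioo (-η) (1 + η)
    rw [hpz, sc_add_smul_Gv h hh, e1]
    exact ⟨by linarith [hs.1], by linarith [hs.2]⟩
  · show sc h c b g (pr h g z) ∈ Set.Ioo (-η) (1 + η)
    rw [hpz, sc_add_smul_Gv h hh, e2]
    exact ⟨by linarith [ht.1], by linarith [ht.2]⟩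
  · rw [← proj_eq_pr]; abel

/-- **Reduction of S0329 to S0326** (the conclusion of S0326 with `L := M` for every `ε'`) and the
area formula for affine images of planar sets. -/
theorem core (h M : ℝ) (hh : 0 < h) (D : Set E2) (V : E2 → E2)
    (h326 : ∀ ε' : ℝ, 0 < ε' → ∃ (k : ℕ) (c a b g : Fin k → E2),
      (∀ i, a i ≠ 0 ∧ ‖b i‖ = ‖a i‖ ∧ inner ℝ (a i) (b i) = 0) ∧
      {z : ℝ × E2 | ∃ p ∈ D, abs z.1 ≤ M ∧ z.2 = p + z.1 • V p} ⊆
        ⋃ i, {z : ℝ × E2 | ∃ x ∈ Set.Icc (0 : ℝ) 1, ∃ y ∈ Set.Icc (0 : ℝ) 1,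
          z.2 = c i + x • a i + y • b i + z.1 • g i} ∧
      ∑ i, ‖a i‖ ^ 2 / Real.sqrt (1 + (g i 0) ^ 2 + h ^ 2 * (g i 1) ^ 2) ≤
        (∫ p in D, 1 / Real.sqrt (1 + (V p 0) ^ 2 + h ^ 2 * (V p 1) ^ 2)) + ε')
    (harea : ∀ (c a b : E3) (S : Set (ℝ × ℝ)),
      0 < Real.sqrt (‖a‖ ^ 2 * ‖b‖ ^ 2 - inner ℝ a b ^ 2) →
      μHE[2] ((fun st : ℝ × ℝ => c + st.1 • a + st.2 • b) '' S) =
        ENNReal.ofReal (Real.sqrt (‖a‖ ^ 2 * ‖b‖ ^ 2 - inner ℝ a b ^ 2)) * volume S)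
    (ε : ℝ) (hε : 0 < ε) :
    ∃ (k : ℕ) (u : Fin k → E3) (B : Fin k → Set E3),
      (∀ i, ‖u i‖ = 1) ∧
      (∀ i, Bornology.IsBounded (B i) ∧ ∃ O : Set E3, IsOpen O ∧
        B i = O ∩ {x | inner ℝ x (u i) = 0}) ∧
      {z : E3 | ∃ p ∈ D, ∃ x : ℝ, abs x ≤ M ∧
          z = !₂[x, p 0 + x * V p 0, h * (p 1 + x * V p 1)]} ⊆
        ⋃ i, {z : E3 | ∃ y ∈ B i, ∃ τ : ℝ, z = y + τ • u i} ∧
      ∑ i, (μHE[2] (B i)).toReal ≤
        h * (∫ p in D, 1 / Real.sqrt (1 + (V p 0) ^ 2 + h ^ 2 * (V p 1) ^ 2)) + ε := by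
  set I : ℝ := ∫ p in D, 1 / Real.sqrt (1 + (V p 0) ^ 2 + h ^ 2 * (V p 1) ^ 2) with hIdef
  have hI : 0 ≤ I := integral_nonneg (fun p => by positivity)
  set lam : ℝ := min 1 (ε / (2 * h * (I + 1))) with hlam
  have hlam0 : 0 < lam := lt_min one_pos (by positivity)
  have hlam1 : lam ≤ 1 := min_le_left _ _
  have hlam2 : lam ≤ ε / (2 * h * (I + 1)) := min_le_right _ _
  set η : ℝ := lam / 8 with hηdef
  have hη : 0 < η := by positivity
  obtain ⟨k, c, a, b, g, hfr, hcov, hsum⟩ := h326 (ε / (4 * h)) (by positivity)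
  refine ⟨k, fun i => uv h (g i), fun i => Bset h (c i) (a i) (b i) (g i) η,
    fun i => norm_uv h (g i),
    fun i => ⟨Bset_bounded h hh.ne' (hfr i).1 (hfr i).2.1 (hfr i).2.2 η,
      Oset h (c i) (a i) (b i) (g i) η, isOpen_Oset _ _ _ _ _ _, rfl⟩, ?_, ?_⟩
  · rintro z ⟨p, hp, x, hx, rfl⟩
    have hmem : ((x, p + x • V p) : ℝ × E2) ∈
        {z : ℝ × E2 | ∃ p ∈ D, abs z.1 ≤ M ∧ z.2 = p + z.1 • V p} := ⟨p, hp, hx, rfl⟩
    obtain ⟨i, s, hs, t, ht, hw⟩ := Set.mem_iUnion.mp (hcov hmem)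
    have := Bset_cover h hh.ne' (hfr i).1 (hfr i).2.1 (hfr i).2.2 η hη (p + x • V p) x s t hs ht hw
    simp only [PiLp.add_apply, PiLp.smul_apply, smul_eq_mul] at this
    exact Set.mem_iUnion.mpr ⟨i, this⟩
  · have e1 : h * (ε / (4 * h)) = ε / 4 := by field_simp
    have e2 : lam * (2 * h * (I + 1)) ≤ ε := (le_div_iff₀ (by positivity)).mp hlam2
    have e3 : (1 + 2 * η) ^ 2 ≤ 1 + lam := by rw [hηdef]; nlinarith
    have hS0 : 0 ≤ ∑ i, ‖a i‖ ^ 2 / Real.sqrt (1 + (g i 0) ^ 2 + h ^ 2 * (g i 1) ^ 2) :=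
      Finset.sum_nonneg (fun i _ => by positivity)
    calc ∑ i, (μHE[2] (Bset h (c i) (a i) (b i) (g i) η)).toReal
        ≤ ∑ i, (1 + 2 * η) ^ 2 * (h * ‖a i‖ ^ 2 / Real.sqrt (N2 h (g i))) :=
          Finset.sum_le_sum (fun i _ =>
            Bset_area h hh (hfr i).1 (hfr i).2.1 (hfr i).2.2 η hη harea)
      _ = (1 + 2 * η) ^ 2 * h *
            ∑ i, ‖a i‖ ^ 2 / Real.sqrt (1 + (g i 0) ^ 2 + h ^ 2 * (g i 1) ^ 2) := by
          rw [Finset.mul_sum]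
          apply Finset.sum_congr rfl
          intro i _
          unfold N2
          ring
      _ ≤ (1 + lam) * h * (I + ε / (4 * h)) := by
          apply mul_le_mul _ hsum hS0 (by positivity)
          exact mul_le_mul_of_nonneg_right e3 hh.le
      _ ≤ h * I + ε := by
          have e4 : (1 + lam) * h * (I + ε / (4 * h)) = h * I + lam * h * I + (1 + lam) * (h * (ε / (4 * h))) := by
            ring
          rw [e4, e1]
          nlinarith [mul_nonneg hlam0.le hh.le, mul_nonneg (mul_nonneg hlam0.le hh.le) hI]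

end Crest.Agent.S0329
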